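import Vale.Agent.P032.H437.Fam

/-!
# P032: honest sides at the centre of the windows (family F5 at `z`)

`HD U z i` : the directions `x` (units of 60 degrees) such that a colour `i` occurring near a point
of `S(z)` outside (inside) the disc is not strictly in front (behind) in the direction `x`: solid
directions, their limits, and the directions of continua of `i` at `z`.

`Hon U z L R i` : the window of `i` contains such a direction (`hon_left`, `hon_right` : a window
end is a limit of solid directions; `hon_att` : the colour is attached).  If all colours are honest,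
then at every slot of constant palette the colours in front occur only inside and the colours behind
only outside the disc.

`sides_LS`, `sides_RS`, `sides_st` : the sides of the limit letters are read off the windows;
`inn_z`, `out_z`, `fst_z`, `snd_z`, `sideIO_z` : the clauses at the lattice point `(0, 0)`.
-/

open Set Filter Topology Metric

noncomputable section

namespace Vale.Agent.P032.H266

open Vale.Agent.P032.Six Vale.Agent.P032.Sweep Vale.Agent.P032.S5.H767 Vale.Agent.P032.S5.H122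
  Vale.Agent.P032.H158 Vale.Agent.P032.H782 Vale.Agent.P032.H429 Vale.Agent.P032.H437

variable {U : Fin 6 → Set ℂ} {T : ℂ → Set (Fin 6)} {z : ℂ} {L R : Fin 6 → ℝ} {i : Fin 6}

/-- the directions which see the sides of the colour honestly -/
def HD (U : Fin 6 → Set ℂ) (z : ℂ) (i : Fin 6) : Set ℝ :=
  {x | ∀ t : ℝ, (OutN U z (pt z t) i → Real.cos ((x - t) * (Real.pi / 3)) ≤ 0) ∧
    (InnN U z (pt z t) i → 0 ≤ Real.cos ((x - t) * (Real.pi / 3)))}

/-- limits of solid directions -/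
theorem HD_of_Dr (h : Mx U) {x : ℝ} (hx : x ∈ closure (Dr U z i)) : x ∈ HD U z i := fun _ =>
  ⟨fun ho => out_dir h ho hx, fun ho => inn_dir h ho hx⟩

/-- the window of the colour contains an honest direction -/
def Hon (U : Fin 6 → Set ℂ) (z : ℂ) (L R : Fin 6 → ℝ) (i : Fin 6) : Prop :=
  ∃ x ∈ HD U z i, ∃ n : ℤ, L i + 6 * n ≤ x ∧ x ≤ R i + 6 * n

theorem hon_left (h : Mx U) (w : WinData T z L R) (hL : L i ∈ closure (Dr U z i)) :
    Hon U z L R i :=
  ⟨L i, HD_of_Dr h hL, 0, by simp, by simpa using w.le i⟩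

theorem hon_right (h : Mx U) (w : WinData T z L R) (hR : R i ∈ closure (Dr U z i)) :
    Hon U z L R i :=
  ⟨R i, HD_of_Dr h hR, 0, by simpa using w.le i, by simp⟩

/-! ### Attached colours -/

/-- points which accumulate at `z` accumulate in a direction -/
theorem exists_nap {Q : ℂ → Prop} (hQ : ∃ᶠ w in 𝓝 z, w ≠ z ∧ Q w) :
    ∃ s : ℝ, ∃ᶠ x in nap z (cis s), Q x := by
  by_contra hcon
  push Not at hcon
  have h1 : ∀ s ∈ Icc (-Real.pi) Real.pi, ∃ δ > 0, ∀ s' r : ℝ, |s' - s| < δ → 0 < r → r < δ →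
      ¬ Q (z + r * cis s') := by
    intro s _
    have h3 : ∀ᶠ x in nap z (cis s), ¬ Q x := hcon s
    obtain ⟨δ, hδ, h4⟩ := nap_iff.1 h3
    refine ⟨δ, hδ, fun s' r hs hr0 hr => ?_⟩
    have h5 := h4 (s' - s) r hs hr0 hr
    rwa [← cis_add429, add_sub_cancel] at h5
  choose! δ hδ hd using h1
  obtain ⟨F, hF, hcov⟩ := isCompact_Icc.elim_nhds_subcover (fun s => ball s (δ s))
    (fun s hs => ball_mem_nhds s (hδ s hs))
  have hFne : F.Nonempty := by
    rcases F.eq_empty_or_nonempty with h2 | h2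
    · rw [h2] at hcov
      have := hcov (show (0 : ℝ) ∈ Icc (-Real.pi) Real.pi from
        ⟨by linarith [Real.pi_pos], by linarith [Real.pi_pos]⟩)
      simp at this
    · exact h2
  have hpos : 0 < F.inf' hFne δ := by
    rw [Finset.lt_inf'_iff]
    exact fun s hs => hδ s (hF s hs)
  have h2 : ∀ᶠ w in 𝓝 z, w ≠ z → ¬ Q w := by
    filter_upwards [ball_mem_nhds z hpos] with w hw hwz
    obtain ⟨r, hr⟩ : ∃ r, r = dist w z := ⟨_, rfl⟩
    have hr0 : 0 < r := by rw [hr]; exact dist_pos.2 hwz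
    obtain ⟨s0, hs0⟩ := exists_cis (u := ((r⁻¹ : ℝ) : ℂ) * (w - z)) (by
      rw [norm_mul, Complex.norm_real, Real.norm_eq_abs, abs_of_pos (inv_pos.2 hr0),
        ← dist_eq_norm, ← hr, inv_mul_cancel₀ hr0.ne'])
    obtain ⟨n, hn1, hn2⟩ := exists_rep429 (-Real.pi) s0
    set s := s0 + 2 * Real.pi * n with hs
    have hsI : s ∈ Icc (-Real.pi) Real.pi := ⟨hn1, by linarith⟩
    have hw' : w = z + r * cis s := by
      rw [hs, cis_int429, ← hs0, ← mul_assoc, ← Complex.ofReal_mul, mul_inv_cancel₀ hr0.ne']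
      simp
    obtain ⟨s1, hs1, hs2⟩ := mem_iUnion₂.1 (hcov hsI)
    rw [hw']
    refine hd s1 (hF s1 hs1) s r (by rwa [mem_ball, Real.dist_eq] at hs2) hr0 ?_
    have h3 : F.inf' hFne δ ≤ δ s1 := Finset.inf'_le _ hs1
    rw [mem_ball, ← hr] at hw
    linarith
  obtain ⟨w, ⟨h3, h5⟩, h4⟩ := (hQ.and_eventually h2).exists
  exact h4 h3 h5

/-- the colour `i` is attached at `z` (the conclusion of `Irr.att429`) -/
def Att (T : ℂ → Set (Fin 6)) (z : ℂ) (i : Fin 6) : Prop :=
  ∀ ε > 0, ∃ C : Set ℂ, IsPreconnected C ∧ z ∈ C ∧ C ⊆ ball z ε ∧ (∀ x ∈ C, i ∈ T x) ∧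
    ∃ y ∈ C, y ≠ z

/-- **an attached colour has an honest direction among its directions** -/
theorem hd_att (h : Irr U T) (hA : Att T z i) :
    ∃ x ∈ HD U z i, x * (Real.pi / 3) ∈ Dir429 T z i := by
  have hpi := Real.pi_pos
  set Q : ℂ → Prop := fun x => i ∈ T x ∧ ∀ t : ℝ, (OutN U z (pt z t) i → 1 ≤ dist x (pt z t)) ∧
    (InnN U z (pt z t) i → dist x (pt z t) ≤ 1) with hQ
  have h1 : ∃ᶠ w in 𝓝 z, w ≠ z ∧ Q w := by
    rw [frequently_iff]
    intro N hN
    obtain ⟨ε, hε, hb⟩ := Metric.mem_nhds_iff.1 hN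
    obtain ⟨C, hC, hz, hCb, hCi, y, hy, hyz⟩ := hA ε hε
    refine ⟨y, hb (hCb hy), hyz, hCi y hy, fun t => ⟨fun ho => ?_, fun ho => ?_⟩⟩
    · exact ho.cont h.mx hC hz (fun x hx => h.sub x (hCi x hx)) y hy
    · exact ho.cont h.mx hC hz (fun x hx => h.sub x (hCi x hx)) y hy
  obtain ⟨s, hs⟩ := exists_nap h1
  have e : s = s * (3 / Real.pi) * (Real.pi / 3) := by field_simp
  refine ⟨s * (3 / Real.pi), fun t => ?_, ?_⟩
  · have e2 : (s * (3 / Real.pi) - t) * (Real.pi / 3) = s - t * (Real.pi / 3) := by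
      rw [sub_mul, ← e]
    have e3 : ip (cis s) (z - pt z t) = -Real.cos (s - t * (Real.pi / 3)) := by
      have e4 : z - pt z t = -(pt z t - z) := by ring
      rw [e4, pt_sub158, ← ip_cis429]
      unfold ip
      simp
      ring
    rw [e2]
    constructor
    · intro ho
      by_contra hcon
      push Not at hcon
      obtain ⟨x, hx, hx'⟩ := (hs.and_eventually (nap_near (y := z) (d := cis s) (v := pt z t)
        (by rw [dist_comm]; exact dist_pt158 z t) (by rw [e3]; linarith))).exists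
      exact absurd ((hx.2 t).1 ho) (not_le.2 hx')
    · intro ho
      by_contra hcon
      push Not at hcon
      obtain ⟨x, hx, hx'⟩ := (hs.and_eventually (nap_far (y := z) (d := cis s) (v := pt z t)
        (by rw [dist_comm]; exact dist_pt158 z t) (by rw [e3]; linarith))).exists
      exact absurd ((hx.2 t).2 ho) (not_le.2 hx')
  · rw [← e]
    exact hs.mono fun x hx => hx.1

/-- an attached colour is honest if the window contains its directions -/
theorem hon_att (h : Irr U T) (hA : Att T z i) (hw : ∀ s ∈ Dir429 T z i, ∃ n : ℤ,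
    L i * (Real.pi / 3) + 2 * Real.pi * n ≤ s ∧ s ≤ R i * (Real.pi / 3) + 2 * Real.pi * n) :
    Hon U z L R i := by
  have hpi := Real.pi_pos
  obtain ⟨x, hx, hd⟩ := hd_att h hA
  obtain ⟨n, h1, h2⟩ := hw _ hd
  refine ⟨x, hx, n, ?_, ?_⟩
  · by_contra hcon
    push Not at hcon
    have : x * (Real.pi / 3) < (L i + 6 * n) * (Real.pi / 3) :=
      mul_lt_mul_of_pos_right hcon (by positivity)
    linarith
  · by_contra hcon
    push Not at hcon
    have : (R i + 6 * n) * (Real.pi / 3) < x * (Real.pi / 3) :=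
      mul_lt_mul_of_pos_right hcon (by positivity)
    linarith

/-! ### Honest sides at a slot -/

/-- the cosine of a direction strictly in front -/
theorem cos_front {x t : ℝ} {n : ℤ} (h1 : t - 3 / 2 < x + 6 * n) (h2 : x + 6 * n < t + 3 / 2) :
    0 < Real.cos ((x - t) * (Real.pi / 3)) := by
  have hp := Real.pi_pos
  have e : Real.cos ((x - t) * (Real.pi / 3)) = Real.cos ((x + 6 * n - t) * (Real.pi / 3)) := by
    have e1 : (x + 6 * n - t) * (Real.pi / 3) = (x - t) * (Real.pi / 3) + n * (2 * Real.pi) := by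
      ring
    rw [e1, Real.cos_add_int_mul_two_pi]
  rw [e]
  refine Real.cos_pos_of_mem_Ioo ⟨?_, ?_⟩
  · nlinarith
  · nlinarith

/-- a colour in front does not occur outside -/
theorem no_out {s : ℝ} {a : Fin 6} (ha : Hon U z L R a)
    (hf : ∃ n : ℤ, s - 3 / 2 < L a + 6 * n ∧ R a + 6 * n < s + 3 / 2) :
    ¬ OutN U z (pt z s) a := by
  intro ho
  obtain ⟨x, hx, m, h1, h2⟩ := ha
  obtain ⟨n, h3, h4⟩ := hf
  have h5 := (hx s).1 ho
  have h6 := cos_front (x := x) (t := s) (n := n - m) (by push_cast; linarith)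
    (by push_cast; linarith)
  linarith

/-- a colour behind does not occur inside -/
theorem no_inn {s : ℝ} {b : Fin 6} (hb : Hon U z L R b)
    (hf : ∃ n : ℤ, s + 3 / 2 < L b + 6 * n ∧ R b + 6 * n < s + 9 / 2) :
    ¬ InnN U z (pt z s) b := by
  intro ho
  obtain ⟨x, hx, m, h1, h2⟩ := hb
  obtain ⟨n, h3, h4⟩ := hf
  have h5 := (hx s).2 ho
  have h6 := cos_front (x := x) (t := s + 3) (n := n - m) (by push_cast; linarith)
    (by push_cast; linarith)
  have e1 : (x - (s + 3)) * (Real.pi / 3) = (x - s) * (Real.pi / 3) - Real.pi := by ring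
  rw [e1, Real.cos_sub_pi] at h6
  linarith

theorem outN_of_occ (h : Irr U T) {w p : ℂ} (ho : OccIn T p {x | 1 < dist x w} i) :
    OutN U w p i :=
  ho.freq h

theorem innN_of_occ (h : Irr U T) {w p : ℂ} (ho : OccIn T p {x | dist x w < 1} i) :
    InnN U w p i :=
  ho.freq h

/-! ### The limit letters -/

/-- a colour of a limit letter occurs inside or outside -/
theorem side_or (h : Irr U T) {F : Ultrafilter ℝ} {w : ℂ} {k : ℝ} {i : Fin 6}
    (hs : LcF F T w k) (hi : i ∈ lt F T w k) : Inn F T w k i ∨ Out F T w k i := by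
  obtain ⟨c, hc⟩ := exists_inn (F := F) h w k
  by_cases e : i = c
  · left
    rw [e]
    exact hc
  · exact inn_or_out h hs hi (hc.mem h) e

section

variable {F : Ultrafilter ℝ} {W : Wn} {i j : Fin 6}

/-- a colour inside has its window in front -/
theorem win_of_inn (h : Irr U T) (w : WinData T z L R)
    (hW : ∀ᶠ v in (F : Filter ℝ), wn L R v = W) (hlc : LcF F T z (j.val : ℝ))
    (hH : Hon U z L R i) (hi : Inn F T z (j.val : ℝ) i) : inn (W i) (j.val : ZMod 6) := by
  have h0 : i ∈ lt F T z (j.val : ℝ) := hi.mem h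
  obtain ⟨v, ⟨h1, h2⟩, h3, h4⟩ := ((hW.and hlc).and ((lt_spec F T z (j.val : ℝ)).and
    (show ∀ᶠ v in (F : Filter ℝ), OccIn T (pt z (v + (j.val : ℝ))) {x | dist x z < 1} i
      from hi))).exists
  rw [← h3] at h0
  rcases w.side _ h2 i h0 with hf | hb
  · rw [← h1]
    exact w.inn_of_front hf
  · exact (no_inn hH hb (innN_of_occ h h4)).elim

/-- a colour outside has its window behind -/
theorem win_of_out (h : Irr U T) (w : WinData T z L R)
    (hW : ∀ᶠ v in (F : Filter ℝ), wn L R v = W) (hlc : LcF F T z (j.val : ℝ))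
    (hH : Hon U z L R i) (hi : Out F T z (j.val : ℝ) i) : out (W i) (j.val : ZMod 6) := by
  have h0 : i ∈ lt F T z (j.val : ℝ) := hi.mem h
  obtain ⟨v, ⟨h1, h2⟩, h3, h4⟩ := ((hW.and hlc).and ((lt_spec F T z (j.val : ℝ)).and
    (show ∀ᶠ v in (F : Filter ℝ), OccIn T (pt z (v + (j.val : ℝ))) {x | 1 < dist x z} i
      from hi))).exists
  rw [← h3] at h0
  rcases w.side _ h2 i h0 with hf | hb
  · exact (no_out hH hf (outN_of_occ h h4)).elim
  · rw [← h1]
    exact w.out_of_back hb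

/-- the sides of the colours of a limit letter -/
theorem sides_win (h : Irr U T) (w : WinData T z L R)
    (hW : ∀ᶠ v in (F : Filter ℝ), wn L R v = W) (hlc : LcF F T z (j.val : ℝ))
    (hH : Hon U z L R i) :
    (Inn F T z (j.val : ℝ) i ↔ i ∈ lt F T z (j.val : ℝ) ∧ inn (W i) (j.val : ZMod 6)) ∧
      (Out F T z (j.val : ℝ) i ↔ i ∈ lt F T z (j.val : ℝ) ∧ out (W i) (j.val : ZMod 6)) := by
  refine ⟨⟨fun hi => ⟨hi.mem h, win_of_inn h w hW hlc hH hi⟩, fun hi => ?_⟩,
    ⟨fun hi => ⟨hi.mem h, win_of_out h w hW hlc hH hi⟩, fun hi => ?_⟩⟩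
  · rcases side_or h hlc hi.1 with h1 | h1
    · exact h1
    · exact (not_inn_out hi.2 (win_of_out h w hW hlc hH h1)).elim
  · rcases side_or h hlc hi.1 with h1 | h1
    · exact (not_inn_out (win_of_inn h w hW hlc hH h1) hi.2).elim
    · exact h1

end

/-- **honest sides at `z` before the event** : the limit letter of a limit state from the left -/
theorem sides_LS (h : Irr U T) (w : WinData T z L R) (hH : ∀ i, Hon U z L R i) {u : ℝ}
    {F : Ultrafilter ℝ} (hF : (F : Filter ℝ) ≤ 𝓝[<] u) {s : St} (hs : s ∈ LS T z L R u)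
    (j : Fin 6) (hlc : LcF F T z (j.val : ℝ)) (i : Fin 6) :
    (Inn F T z (j.val : ℝ) i ↔ i ∈ lt F T z (j.val : ℝ) ∧ inn (s.2 i) (j.val : ZMod 6)) ∧
      (Out F T z (j.val : ℝ) i ↔ i ∈ lt F T z (j.val : ℝ) ∧ out (s.2 i) (j.val : ZMod 6)) := by
  rw [WinData.LS_win hs]
  exact sides_win h w ((wn_left L R u).filter_mono hF) hlc (hH i)

/-- **honest sides at `z` after the event** -/
theorem sides_RS (h : Irr U T) (w : WinData T z L R) (hH : ∀ i, Hon U z L R i) {u : ℝ}
    {F : Ultrafilter ℝ} (hF : (F : Filter ℝ) ≤ 𝓝[>] u) {s : St} (hs : s ∈ RS T z L R u)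
    (j : Fin 6) (hlc : LcF F T z (j.val : ℝ)) (i : Fin 6) :
    (Inn F T z (j.val : ℝ) i ↔ i ∈ lt F T z (j.val : ℝ) ∧ inn (s.2 i) (j.val : ZMod 6)) ∧
      (Out F T z (j.val : ℝ) i ↔ i ∈ lt F T z (j.val : ℝ) ∧ out (s.2 i) (j.val : ZMod 6)) := by
  rw [WinData.RS_win hs]
  exact sides_win h w ((wn_right L R u).filter_mono hF) hlc (hH i)

/-- the letters of the limit states have two colours -/
theorem ne_LS (w : WinData T z L R) {u : ℝ} {s : St} (hs : s ∈ LS T z L R u) (j : Fin 6) :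
    (s.1 j).1 ≠ (s.1 j).2 := by
  have hs' : ∃ᶠ v in 𝓝[<] u, v ∈ WinData.G T z L R ∧ WinData.st T z L R v = s := hs
  obtain ⟨v, hG, h1⟩ := hs'.exists
  have e1 : WinData.col T z L R v = s.1 := by rw [← h1]; rfl
  rw [← e1]
  exact (w.col_spec hG.1 j).2.2.1

theorem ne_RS (w : WinData T z L R) {u : ℝ} {s : St} (hs : s ∈ RS T z L R u) (j : Fin 6) :
    (s.1 j).1 ≠ (s.1 j).2 := by
  have hs' : ∃ᶠ v in 𝓝[>] u, v ∈ WinData.G T z L R ∧ WinData.st T z L R v = s := hs
  obtain ⟨v, hG, h1⟩ := hs'.exists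
  have e1 : WinData.col T z L R v = s.1 := by rw [← h1]; rfl
  rw [← e1]
  exact (w.col_spec hG.1 j).2.2.1

/-! ### The clauses of the family -/

/-- the sides at the times of a state -/
theorem sides_st (h : Irr U T) (w : WinData T z L R) (hH : ∀ i, Hon U z L R i)
    {F : Ultrafilter ℝ} {s : St}
    (hF : ∀ᶠ v in (F : Filter ℝ), v ∈ WinData.G T z L R ∧ WinData.st T z L R v = s)
    (j : Fin 6) (i : Fin 6) :
    (Inn F T z (j.val : ℝ) i ↔ i ∈ lt F T z (j.val : ℝ) ∧ inn (s.2 i) (j.val : ZMod 6)) ∧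
      (Out F T z (j.val : ℝ) i ↔ i ∈ lt F T z (j.val : ℝ) ∧ out (s.2 i) (j.val : ZMod 6)) :=
  sides_win h w (hF.mono fun v hv => by rw [← hv.2]; rfl) (hF.mono fun v hv => hv.1.1 j) (hH i)

/-- the colour in front of the chosen letter is inside -/
theorem fst_st (h : Irr U T) (w : WinData T z L R) (hH : ∀ i, Hon U z L R i)
    {F : Ultrafilter ℝ} {s : St}
    (hF : ∀ᶠ v in (F : Filter ℝ), v ∈ WinData.G T z L R ∧ WinData.st T z L R v = s)
    (j : Fin 6) : Inn F T z (j.val : ℝ) (s.1 j).1 := by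
  obtain ⟨v, hG, h1⟩ := hF.exists
  obtain ⟨-, -, -, h5, -⟩ := w.col_spec hG.1 j
  have e1 : WinData.col T z L R v = s.1 := by rw [← h1]; rfl
  have e2 : wn L R v = s.2 := by rw [← h1]; rfl
  rw [e1, e2] at h5
  exact (sides_st h w hH hF j _).1.2 ⟨(lt_col w hF j).1, h5⟩

/-- the colour behind of the chosen letter is outside -/
theorem snd_st (h : Irr U T) (w : WinData T z L R) (hH : ∀ i, Hon U z L R i)
    {F : Ultrafilter ℝ} {s : St}
    (hF : ∀ᶠ v in (F : Filter ℝ), v ∈ WinData.G T z L R ∧ WinData.st T z L R v = s)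
    (j : Fin 6) : Out F T z (j.val : ℝ) (s.1 j).2 := by
  obtain ⟨v, hG, h1⟩ := hF.exists
  obtain ⟨-, -, -, -, h6⟩ := w.col_spec hG.1 j
  have e1 : WinData.col T z L R v = s.1 := by rw [← h1]; rfl
  have e2 : wn L R v = s.2 := by rw [← h1]; rfl
  rw [e1, e2] at h6
  exact (sides_st h w hH hF j _).2.2 ⟨(lt_col w hF j).2.1, h6⟩

variable {u : ℝ} {F : Bool → Ultrafilter ℝ} {σ : Bool} {s : St} {i j : Fin 6}

/-- **the colours inside at a slot of `z`** : the colours of the palette in front -/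
theorem inn_z (hf : Fr U T u F) (w : WinData T z L R) (hH : ∀ i, Hon U z L R i)
    (hs : ∀ᶠ v in (F σ : Filter ℝ), v ∈ WinData.G T z L R ∧ WinData.st T z L R v = s) :
    IN T z u F σ 0 0 j i ↔ i ∈ lt (F σ) T z (j.val : ℝ) ∧ inn (s.2 i) (j.val : ZMod 6) := by
  unfold IN
  rw [lp_zero]
  exact (sides_st hf.irr w hH hs j i).1

/-- **the colours outside at a slot of `z`** : the colours of the palette behind -/
theorem out_z (hf : Fr U T u F) (w : WinData T z L R) (hH : ∀ i, Hon U z L R i)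
    (hs : ∀ᶠ v in (F σ : Filter ℝ), v ∈ WinData.G T z L R ∧ WinData.st T z L R v = s) :
    OUT T z u F σ 0 0 j i ↔ i ∈ lt (F σ) T z (j.val : ℝ) ∧ out (s.2 i) (j.val : ZMod 6) := by
  unfold OUT
  rw [lp_zero]
  exact (sides_st hf.irr w hH hs j i).2

/-- the first colour of the chosen letter is inside -/
theorem fst_z (hf : Fr U T u F) (w : WinData T z L R) (hH : ∀ i, Hon U z L R i)
    (hs : ∀ᶠ v in (F σ : Filter ℝ), v ∈ WinData.G T z L R ∧ WinData.st T z L R v = s) :
    IN T z u F σ 0 0 j (s.1 j).1 := by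
  unfold IN
  rw [lp_zero]
  exact fst_st hf.irr w hH hs j

/-- the second colour of the chosen letter is outside -/
theorem snd_z (hf : Fr U T u F) (w : WinData T z L R) (hH : ∀ i, Hon U z L R i)
    (hs : ∀ᶠ v in (F σ : Filter ℝ), v ∈ WinData.G T z L R ∧ WinData.st T z L R v = s) :
    OUT T z u F σ 0 0 j (s.1 j).2 := by
  unfold OUT
  rw [lp_zero]
  exact snd_st hf.irr w hH hs j

/-- **F5 at `z`**: no colour on both sides -/
theorem sideIO_z (hf : Fr U T u F) (w : WinData T z L R) (hH : ∀ i, Hon U z L R i)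
    (hs : ∀ᶠ v in (F σ : Filter ℝ), v ∈ WinData.G T z L R ∧ WinData.st T z L R v = s)
    {c : Fin 6} (hc : IN T z u F σ 0 0 j c) : ¬ OUT T z u F σ 0 0 j c := fun hd =>
  not_inn_out ((inn_z hf w hH hs).1 hc).2 ((out_z hf w hH hs).1 hd).2

end Vale.Agent.P032.H266
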